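import Vale.Agent.P369.FD.MainStmts
import Vale.Agent.P369.H688.Amp

/-!
P369 (helper919), package FD-PEN of the finite-matrix track: the truncated thermal generator raises
the exponential moment of the photon number by at most a constant, uniformly in the cutoff.
-/

set_option linter.all false

namespace Vale.Agent.P369.FD.H919

open Matrix
open Vale.Agent.P369 (Conf up down ampn g)
open Vale.Agent.P369A (Ct)
open Vale.Agent.P369.FD
open scoped Kronecker ComplexOrder

noncomputable section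

variable {n : ℕ}

/-- moving a function of the photon number through a lowering matrix -/
theorem fnum_low (X : ℕ) (j : Fin n) (v : ℕ → ℝ) :
    fnum X v * low X j = low X j * fnum X (fun k => v (k - 1)) := by
  unfold fnum
  ext k l
  rw [Matrix.diagonal_mul, Matrix.mul_diagonal]
  unfold low
  by_cases h : l.1 = up k.1 j
  · rw [if_pos h]
    have h1 : ∑ i, l.1 i = ∑ i, k.1 i + 1 := by rw [h, H688.sum_up]
    rw [h1]
    show _ = _ * ((v (∑ i, k.1 i + 1 - 1) : ℝ) : ℂ)
    rw [Nat.add_sub_cancel, mul_comm]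
  · rw [if_neg h, zero_mul, mul_zero]

/-- moving a function of the photon number through a lowering matrix -/
theorem low_fnum (X : ℕ) (j : Fin n) (v : ℕ → ℝ) :
    low X j * fnum X v = fnum X (fun k => v (k + 1)) * low X j := by
  unfold fnum
  ext k l
  rw [Matrix.diagonal_mul, Matrix.mul_diagonal]
  unfold low
  by_cases h : l.1 = up k.1 j
  · rw [if_pos h]
    have h1 : ∑ i, l.1 i = ∑ i, k.1 i + 1 := by rw [h, H688.sum_up]
    rw [h1, mul_comm]
  · rw [if_neg h, zero_mul, mul_zero]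

theorem trace_diag {ι : Type} [Fintype ι] [DecidableEq ι] (d : ι → ℂ) (A : Matrix ι ι ℂ) :
    (diagonal d * A).trace = ∑ k, d k * A k k := by
  rw [Matrix.trace]
  exact Finset.sum_congr rfl fun k _ => by rw [Matrix.diag_apply, Matrix.diagonal_mul]

/-- the diagonal of `a a†` -/
def rr (X : ℕ) (j : Fin n) (k : Ct n X) : ℝ := if ∑ i, k.1 i < X then ((k.1 j : ℕ) : ℝ) + 1 else 0

theorem lowH_low (X : ℕ) (j : Fin n) :
    (low (n := n) X j)ᴴ * low X j = diagonal fun k => (((k.1 j : ℕ) : ℝ) : ℂ) := by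
  have h := H688.anH_mul_an (n := n) X j
  refine h.trans ?_
  congr 1

theorem low_lowH (X : ℕ) (j : Fin n) :
    low (n := n) X j * (low X j)ᴴ = diagonal fun k => ((rr X j k : ℝ) : ℂ) := by
  have h := H688.an_mul_anH (n := n) X j
  refine h.trans ?_
  congr 1
  funext k
  unfold rr
  split_ifs
  · push_cast
    rfl
  · simp

variable {X : ℕ}

theorem t1 (j : Fin n) (v : ℕ → ℝ) (A : Matrix (Ct n X) (Ct n X) ℂ) :
    (fnum X v * (low X j * A * (low X j)ᴴ)).trace =
      ∑ k : Ct n X, ((((k.1 j : ℕ) : ℝ) * v (∑ i, k.1 i - 1) : ℝ) : ℂ) * A k k := by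
  have h : fnum X v * (low X j * A * (low X j)ᴴ) = (fnum X v * low X j * A) * (low X j)ᴴ := by
    simp only [Matrix.mul_assoc]
  rw [h, Matrix.trace_mul_comm, fnum_low]
  have h2 : (low X j)ᴴ * (low X j * fnum X (fun k => v (k - 1)) * A) =
      ((low X j)ᴴ * low X j) * fnum X (fun k => v (k - 1)) * A := by
    simp only [Matrix.mul_assoc]
  rw [h2, lowH_low, fnum, Matrix.diagonal_mul_diagonal, trace_diag]
  refine Finset.sum_congr rfl fun k _ => ?_
  push_cast
  rfl

theorem t2 (j : Fin n) (v : ℕ → ℝ) (A : Matrix (Ct n X) (Ct n X) ℂ) :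
    (fnum X v * ((low X j)ᴴ * low X j * A)).trace =
      ∑ k : Ct n X, ((((k.1 j : ℕ) : ℝ) * v (∑ i, k.1 i) : ℝ) : ℂ) * A k k := by
  rw [lowH_low, ← Matrix.mul_assoc, fnum, Matrix.diagonal_mul_diagonal, trace_diag]
  refine Finset.sum_congr rfl fun k _ => ?_
  push_cast
  ring

theorem t3 (j : Fin n) (v : ℕ → ℝ) (A : Matrix (Ct n X) (Ct n X) ℂ) :
    (fnum X v * (A * ((low X j)ᴴ * low X j))).trace =
      ∑ k : Ct n X, ((((k.1 j : ℕ) : ℝ) * v (∑ i, k.1 i) : ℝ) : ℂ) * A k k := by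
  rw [← Matrix.mul_assoc, Matrix.trace_mul_comm, lowH_low, ← Matrix.mul_assoc, fnum,
    Matrix.diagonal_mul_diagonal, trace_diag]
  refine Finset.sum_congr rfl fun k _ => ?_
  push_cast
  ring

theorem t4 (j : Fin n) (v : ℕ → ℝ) (A : Matrix (Ct n X) (Ct n X) ℂ) :
    (fnum X v * ((low X j)ᴴ * A * low X j)).trace =
      ∑ k : Ct n X, ((rr X j k * v (∑ i, k.1 i + 1) : ℝ) : ℂ) * A k k := by
  have h : fnum X v * ((low X j)ᴴ * A * low X j) = (fnum X v * ((low X j)ᴴ * A)) * low X j := by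
    simp only [Matrix.mul_assoc]
  have h2 : low X j * (fnum X v * ((low X j)ᴴ * A)) = (low X j * fnum X v) * (low X j)ᴴ * A := by
    simp only [Matrix.mul_assoc]
  have h3 : fnum X (fun k => v (k + 1)) * low X j * (low X j)ᴴ =
      fnum X (fun k => v (k + 1)) * (low X j * (low X j)ᴴ) := by
    simp only [Matrix.mul_assoc]
  rw [h, Matrix.trace_mul_comm, h2, low_fnum, h3, low_lowH, fnum, Matrix.diagonal_mul_diagonal,
    trace_diag]
  refine Finset.sum_congr rfl fun k _ => ?_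
  push_cast
  ring

theorem t5 (j : Fin n) (v : ℕ → ℝ) (A : Matrix (Ct n X) (Ct n X) ℂ) :
    (fnum X v * (low X j * (low X j)ᴴ * A)).trace =
      ∑ k : Ct n X, ((rr X j k * v (∑ i, k.1 i) : ℝ) : ℂ) * A k k := by
  rw [low_lowH, ← Matrix.mul_assoc, fnum, Matrix.diagonal_mul_diagonal, trace_diag]
  refine Finset.sum_congr rfl fun k _ => ?_
  push_cast
  ring

theorem t6 (j : Fin n) (v : ℕ → ℝ) (A : Matrix (Ct n X) (Ct n X) ℂ) :
    (fnum X v * (A * (low X j * (low X j)ᴴ))).trace =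
      ∑ k : Ct n X, ((rr X j k * v (∑ i, k.1 i) : ℝ) : ℂ) * A k k := by
  rw [← Matrix.mul_assoc, Matrix.trace_mul_comm, low_lowH, ← Matrix.mul_assoc, fnum,
    Matrix.diagonal_mul_diagonal, trace_diag]
  refine Finset.sum_congr rfl fun k _ => ?_
  push_cast
  ring

/-- the generator in the number picture, for a function of the total photon number -/
theorem trace_lind (N : ℝ) (v : ℕ → ℝ) (A : Matrix (Ct n X) (Ct n X) ℂ) :
    (fnum X v * lind N (low X) A).trace =
      ∑ k : Ct n X, ((∑ j, ((N + 1) * (((k.1 j : ℕ) : ℝ) * (v (∑ i, k.1 i - 1) - v (∑ i, k.1 i))) +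
        N * (rr X j k * (v (∑ i, k.1 i + 1) - v (∑ i, k.1 i)))) : ℝ) : ℂ) * A k k := by
  unfold lind
  rw [Matrix.mul_sum, Matrix.trace_sum]
  have h : ∀ j : Fin n, (fnum X v * ((((N + 1 : ℝ) : ℂ) • (low X j * A * (low X j)ᴴ -
      (1 / 2 : ℂ) • ((low X j)ᴴ * low X j * A + A * ((low X j)ᴴ * low X j)))) +
    ((N : ℝ) : ℂ) • ((low X j)ᴴ * A * low X j -
      (1 / 2 : ℂ) • (low X j * (low X j)ᴴ * A + A * (low X j * (low X j)ᴴ))))).trace =
      ∑ k : Ct n X, ((((N + 1) * (((k.1 j : ℕ) : ℝ) * (v (∑ i, k.1 i - 1) - v (∑ i, k.1 i))) +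
        N * (rr X j k * (v (∑ i, k.1 i + 1) - v (∑ i, k.1 i)))) : ℝ) : ℂ) * A k k := by
    intro j
    rw [Matrix.mul_add, Matrix.trace_add, Matrix.mul_smul, Matrix.trace_smul, Matrix.mul_sub,
      Matrix.trace_sub, Matrix.mul_smul, Matrix.trace_smul, Matrix.mul_add, Matrix.trace_add,
      Matrix.mul_smul, Matrix.trace_smul, Matrix.mul_sub,
      Matrix.trace_sub, Matrix.mul_smul, Matrix.trace_smul, Matrix.mul_add, Matrix.trace_add,
      t1, t2, t3, t4, t5, t6]
    simp only [smul_eq_mul, Finset.mul_sum, ← Finset.sum_add_distrib, ← Finset.sum_sub_distrib]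
    refine Finset.sum_congr rfl fun k _ => ?_
    push_cast
    ring
  rw [Finset.sum_congr rfl fun j _ => h j, Finset.sum_comm]
  refine Finset.sum_congr rfl fun k _ => ?_
  rw [Complex.ofReal_sum, Finset.sum_mul]

/-- the scalar estimate -/
theorem scal (n : ℕ) (N lam : ℝ) (hN : 0 < N) (h1 : 1 < lam) (h2 : lam < 1 + 1 / N) :
    ∃ CV : ℝ, 0 ≤ CV ∧ ∀ (m : ℕ) (r : ℝ), 0 ≤ r → r ≤ m + n →
      (N + 1) * (m * (lam ^ (m - 1) - lam ^ m)) + N * (r * (lam ^ (m + 1) - lam ^ m)) ≤ CV := by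
  have hc : 0 < N + 1 - N * lam := by
    have h3 : N * lam < N * (1 + 1 / N) := mul_lt_mul_of_pos_left h2 hN
    have h4 : N * (1 + 1 / N) = N + 1 := by field_simp
    linarith
  have hl0 : 0 < lam := by linarith
  have hl1 : 0 < lam - 1 := by linarith
  refine ⟨lam ^ ⌈N * lam * n / (N + 1 - N * lam)⌉₊ * ((lam - 1) * (N * lam * n)), by positivity, ?_⟩
  intro m r hr0 hr
  have hpow : ∀ k : ℕ, 1 ≤ lam ^ k := fun k => one_le_pow₀ h1.le
  have hn : (0 : ℝ) ≤ n := Nat.cast_nonneg n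
  rcases Nat.eq_zero_or_pos m with hm | hm
  · subst hm
    have e1 : (N + 1) * (((0 : ℕ) : ℝ) * (lam ^ (0 - 1) - lam ^ 0)) +
        N * (r * (lam ^ (0 + 1) - lam ^ 0)) = N * (r * (lam - 1)) := by
      simp
    rw [e1]
    have hr' : r ≤ n := by simpa using hr
    have e2 : N * (r * (lam - 1)) ≤ 1 * ((lam - 1) * (N * lam * n)) := by
      have e3 : N * (r * (lam - 1)) ≤ N * (n * (lam - 1)) := by gcongr
      have e4 : N * (n * (lam - 1)) ≤ (lam - 1) * (N * lam * n) := by
        have : 0 ≤ (lam - 1) * N * n * (lam - 1) := by positivity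
        nlinarith
      linarith
    refine e2.trans ?_
    gcongr
    exact hpow _
  · obtain ⟨p, rfl⟩ : ∃ p, m = p + 1 := ⟨m - 1, by omega⟩
    have e0 : p + 1 - 1 = p := by omega
    rw [e0]
    have e1 : (N + 1) * (((p + 1 : ℕ) : ℝ) * (lam ^ p - lam ^ (p + 1))) +
        N * (r * (lam ^ (p + 1 + 1) - lam ^ (p + 1))) =
        lam ^ p * ((lam - 1) * (N * lam * r - (N + 1) * ((p + 1 : ℕ) : ℝ))) := by
      rw [pow_succ, pow_succ]
      ring
    rw [e1]
    have e2 : N * lam * r - (N + 1) * ((p + 1 : ℕ) : ℝ) ≤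
        N * lam * n - (N + 1 - N * lam) * ((p + 1 : ℕ) : ℝ) := by
      have : N * lam * r ≤ N * lam * (((p + 1 : ℕ) : ℝ) + n) := by gcongr
      linarith
    by_cases hp : N * lam * n / (N + 1 - N * lam) ≤ ((p + 1 : ℕ) : ℝ)
    · have e3 : N * lam * n ≤ (N + 1 - N * lam) * ((p + 1 : ℕ) : ℝ) := by
        rwa [div_le_iff₀' hc] at hp
      have e4 : (lam - 1) * (N * lam * r - (N + 1) * ((p + 1 : ℕ) : ℝ)) ≤ 0 :=
        mul_nonpos_of_nonneg_of_nonpos hl1.le (by linarith)
      have e5 : lam ^ p * ((lam - 1) * (N * lam * r - (N + 1) * ((p + 1 : ℕ) : ℝ))) ≤ 0 :=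
        mul_nonpos_of_nonneg_of_nonpos (by positivity) e4
      exact e5.trans (by positivity)
    · push Not at hp
      have e3 : p ≤ ⌈N * lam * n / (N + 1 - N * lam)⌉₊ := by
        have : ((p + 1 : ℕ) : ℝ) < ((⌈N * lam * n / (N + 1 - N * lam)⌉₊ : ℕ) : ℝ) :=
          lt_of_lt_of_le hp (Nat.le_ceil _)
        have := Nat.cast_lt.1 this
        omega
      have e4 : (lam - 1) * (N * lam * r - (N + 1) * ((p + 1 : ℕ) : ℝ)) ≤
          (lam - 1) * (N * lam * n) := by
        refine mul_le_mul_of_nonneg_left ?_ hl1.le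
        have : 0 ≤ (N + 1 - N * lam) * ((p + 1 : ℕ) : ℝ) := by positivity
        linarith
      calc lam ^ p * ((lam - 1) * (N * lam * r - (N + 1) * ((p + 1 : ℕ) : ℝ)))
          ≤ lam ^ p * ((lam - 1) * (N * lam * n)) := by gcongr
        _ ≤ _ := by
          refine mul_le_mul_of_nonneg_right ?_ (by positivity)
          exact pow_le_pow_right₀ h1.le e3

end

end Vale.Agent.P369.FD.H919

namespace Vale.Agent.P369.FD

open Matrix
open Vale.Agent.P369 (Conf up down ampn g)
open Vale.Agent.P369A (Ct)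
open scoped Kronecker ComplexOrder

/-- package PEN -/
theorem thm_PEN : S_PEN := by
  intro n N lam hN h1 h2
  obtain ⟨CV, h0, hCV⟩ := H919.scal n N lam hN h1 h2
  refine ⟨CV, h0, ?_⟩
  intro D A hA
  rw [H919.trace_lind, Complex.re_sum]
  have htr : ∑ k, (A k k).re = 1 := by
    have := congrArg Complex.re hA.2
    rw [Matrix.trace, Complex.re_sum] at this
    simpa using this
  have hpos : ∀ k, 0 ≤ (A k k).re := by
    intro k
    have := hA.1.diag_nonneg (i := k)
    exact (Complex.le_def.1 this).1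
  calc ∑ k : Ct n D, (((∑ j, ((N + 1) * (((k.1 j : ℕ) : ℝ) *
          (lam ^ (∑ i, k.1 i - 1) - lam ^ (∑ i, k.1 i))) +
        N * (H919.rr D j k * (lam ^ (∑ i, k.1 i + 1) - lam ^ (∑ i, k.1 i)))) : ℝ) : ℂ) * A k k).re
      ≤ ∑ k : Ct n D, CV * (A k k).re := by
        refine Finset.sum_le_sum fun k _ => ?_
        rw [Complex.re_ofReal_mul]
        refine mul_le_mul_of_nonneg_right ?_ (hpos k)
        rw [Finset.sum_add_distrib, ← Finset.mul_sum, ← Finset.mul_sum, ← Finset.sum_mul,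
          ← Finset.sum_mul]
        have e1 : ∑ j, ((k.1 j : ℕ) : ℝ) = ((∑ i, k.1 i : ℕ) : ℝ) := by push_cast; rfl
        rw [e1]
        refine hCV _ _ ?_ ?_
        · refine Finset.sum_nonneg fun j _ => ?_
          unfold H919.rr
          split_ifs
          · positivity
          · exact le_rfl
        · have e2 : ∑ j, H919.rr D j k ≤ ∑ j : Fin n, (((k.1 j : ℕ) : ℝ) + 1) := by
            refine Finset.sum_le_sum fun j _ => ?_
            unfold H919.rr
            split_ifs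
            · exact le_rfl
            · positivity
          refine e2.trans ?_
          rw [Finset.sum_add_distrib, e1]
          simp
    _ = CV := by rw [← Finset.mul_sum, htr, mul_one]

end Vale.Agent.P369.FD
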